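import Vale.Agent.Lib.P205.Warped

open scoped ContDiff

/-- Every smooth Riemannian metric `E(x) dx² + G(x) dy²` on the torus `ℝ² / (L ℤ × c ℤ)`, with
`E, G > 0` smooth and `L`-periodic, admits a `C^∞` isometric immersion into `ℝ⁴`: there is a smooth
doubly periodic map `F = (F 0, F 1, F 2, F 3)` whose pullback of the Euclidean inner product is
that metric. -/
theorem Vale.Agent.Results.P205.A_warpedTorus.result
    (L c : ℝ) (hL : 0 < L) (hc : 0 < c) (E G : ℝ → ℝ)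
    (hE : ContDiff ℝ ∞ E) (hG : ContDiff ℝ ∞ G)
    (perE : ∀ x, E (x + L) = E x) (perG : ∀ x, G (x + L) = G x)
    (posE : ∀ x, 0 < E x) (posG : ∀ x, 0 < G x) :
    ∃ F : Fin 4 → ℝ × ℝ → ℝ,
      (∀ i, ContDiff ℝ ∞ (F i)) ∧
      (∀ i x y, F i (x + L, y) = F i (x, y)) ∧
      (∀ i x y, F i (x, y + c) = F i (x, y)) ∧
      ∀ p v w : ℝ × ℝ,
        ∑ i, fderiv ℝ (F i) p v * fderiv ℝ (F i) p w
          = E p.1 * (v.1 * w.1) + G p.1 * (v.2 * w.2) :=
  Vale.Agent.Lib.P205.warpedTorus L c hL hc E G hE hG perE perG posE posG
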